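import Vale.Agent.P159.T1.S.H802.Defs
import Vale.Agent.P159.T1.H775.CL
import Vale.Agent.P159.T1.H565.Up5

/-!
The rows of the sharp stage (plan 118 of P159).
-/

open Filter Topology

namespace Vale.Agent.P159.T1.S

open Vale.Agent.P159 Vale.Agent.P159.H353 Vale.Agent.P159.T1.D
open Vale.Agent.P159.T1.H565 (Kf mB Bb)
open Vale.Agent.P159.T1.H775 (lap InBox stp Esc)

/-! ### objects -/

/-- sup norm of a face -/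
def nm (f : Z2) : ℕ := max f.1.natAbs f.2.natAbs

/-- distance to the nearer tip -/
def ns (r : ℕ) (f : Z2) : ℕ := min (nm f) (nm (mir r f))

/-- the slit row -/
def slit (r : ℕ) : Set Z2 := {f | f.2 = -1 ∧ (f.1 < 0 ∨ (r : ℤ) ≤ f.1)}

/-- `v` is the harmonic function on `R` with the boundary values `t` -/
def Harm (R : Finset Z2) (t v : Z2 → ℝ) : Prop :=
  (∀ f, f ∉ R → v f = t f) ∧ ∀ f ∈ R, lap v f = 0

/-- every face off `R` is joined off `R` to infinity -/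
def Unb (R : Finset Z2) : Prop := ∀ a, a ∉ R → ∀ m : ℕ, ∃ z, ¬ InBox a m z ∧ Esc R a z

/-- the smoothed tents: scale invariant bounds (the second differences only off the slits) -/
structure Tent (K c1 : ℝ) (n0 r : ℕ) (t : Z2 → ℝ) : Prop where
  nonneg : ∀ f, 0 ≤ t f
  le : ∀ f, t f ≤ K
  slit : ∀ f ∈ slit r, t f = 0
  near : ∀ f, 2 * ns r f ≤ n0 → t f = 0
  far : ∀ f, 2 * c1 * r ≤ ns r f → t f = 0
  grad : ∀ f d, (1 + ns r f : ℝ) * |t (stp d f) - t f| ≤ K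
  lap : ∀ f, f ∉ S.slit r → (1 + ns r f : ℝ) ^ 2 * |H775.lap t f| ≤ K
  second : ∀ f d d', f ∉ S.slit r → stp d f ∉ S.slit r → stp d' f ∉ S.slit r →
    stp d (stp d' f) ∉ S.slit r →
    (1 + ns r f : ℝ) ^ 2 * |t (stp d (stp d' f)) - t (stp d' f) - (t (stp d f) - t f)| ≤ K

/-- `a = (2 π - d) / (2 π)` -/
noncomputable def aq (q : ℕ) : ℝ := (2 * Real.pi - ang q) / (2 * Real.pi)

/-- the cone part with stream function `clp n0 (c1 r)` (left tip) -/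
noncomputable def Kz (q n0 r : ℕ) (c1 : ℝ) (e : Bnd) : ℝ := Kf q (1 / ang q) 0 (clp n0 (c1 * r)) e

/-- the layer field, both tips -/
noncomputable def Bz (Y : ℝ) (q n0 r : ℕ) (c1 : ℝ) (e : Bnd) : ℝ :=
  (Kz q n0 r c1 e + mB r (Kz q n0 r c1) e) / Y

/-- its charges -/
noncomputable def rz (Y : ℝ) (q n0 r : ℕ) (c1 : ℝ) (f : Z2) : ℝ :=
  ro Y (aq q) q (clp n0 (c1 * r)) f + ro Y (aq q) q (clp n0 (c1 * r)) (mir r f)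

/-- the charges `ρ'` -/
noncomputable def rp (Y V : ℝ) (q n0 r : ℕ) (κ x y s c1 : ℝ) (f : Z2) : ℝ :=
  D.rho Y V q n0 r κ x y s f - rz Y q n0 r c1 f

/-- the main field of the charges `ρ'`, left tip -/
noncomputable def Bm (Y V : ℝ) (q n0 r : ℕ) (c1 : ℝ) (e : Bnd) : ℝ :=
  Bf Y (V - aq q) q (clp n0 (c1 * r)) e +
    Bf Y V q (fun τ => clp n0 ((r : ℝ) / 4) τ - clp n0 (c1 * r) τ) e

/-- the explicit field of the charges `ρ'` -/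
noncomputable def Be (Y V : ℝ) (q n0 r : ℕ) (κ x y s c1 : ℝ) (e : Bnd) : ℝ :=
  Bm Y V q n0 r c1 e + mB r (Bm Y V q n0 r c1) e + Bb r κ x y s e + mB r (Bb r κ x y s) e

/-- the target of the exploration: the two cones up to column `2 c1 r + 1` and the lower boundary -/
def Tz (q r : ℕ) (c1 : ℝ) (U : Finset Z2) : Set Z2 :=
  strip q 1 (⌊2 * c1 * r⌋₊ + 2) ∪ mir r ⁻¹' strip q 1 (⌊2 * c1 * r⌋₊ + 2) ∪ low U

/-- the parameters of the bumps and of the window -/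
def Par (q : ℕ) (κ x y s c1 : ℝ) : Prop :=
  1 ≤ q ∧ 0 < κ ∧ 0 < s ∧ s < y ∧ s + x < 1 / 4 ∧ (q : ℝ) * (y + s) < x - s ∧ 0 < c1 ∧
    2 * c1 < x - s

/-! ### the free square and rough domains -/

/-- S.SQ: exact lower bound for the variance in a domain which contains a square -/
def StmtSq : Prop :=
  ∀ b : ℝ, bCrit ≤ b → ∀ φ : ℝ × ℝ → ℝ, ContDiff ℝ 2 φ → HasCompactSupport φ →
    (∀ z ∈ tsupport φ, 0 < z.1 ∧ z.1 < 1 ∧ 0 < z.2 ∧ z.2 < 1) → ∀ ε : ℝ, 0 < ε →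
    ∃ n1 : ℕ, ∀ n ≥ n1, ∀ (u : Z2) (U : Finset Z2),
      (∀ f : Z2, 0 ≤ f.1 → f.1 < n → 0 ≤ f.2 → f.2 < n → f + u ∈ U) →
      helicity b * Dir φ - ε ≤
        Vr b U (dr fun f => φ (((f.1 - u.1 : ℤ) : ℝ) / n, ((f.2 - u.2 : ℤ) : ℝ) / n))

/-- S.RG: exact lower bound for functions at one scale -/
def StmtRg : Prop :=
  ∀ (b ε δ M K : ℝ), bCrit ≤ b → 0 < ε → 0 < δ → 0 < M → 1 < K →
    ∃ n1 : ℕ, ∀ n ≥ n1, ∀ (U : Finset Z2) (φ : Z2 → ℝ),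
      (∀ f, φ f ≠ 0 → n ≤ nm f ∧ (nm f : ℝ) ≤ K * n ∧
        ∀ g : Z2, |((g.1 - f.1 : ℤ) : ℝ)| ≤ δ * n → |((g.2 - f.2 : ℤ) : ℝ)| ≤ δ * n → g ∈ U) →
      (∀ f, |φ f| ≤ M) → (∀ f d, n * |φ (stp d f) - φ f| ≤ M) →
      (∀ f d d', (n : ℝ) ^ 2 * |φ (stp d (stp d' f)) - φ (stp d' f) - (φ (stp d f) - φ f)| ≤ M) →
      ∀ S : Finset Bnd, helicity b * ∑ e ∈ S, dr φ e ^ 2 - ε ≤ Vr b U (dr φ)

/-- S.V: lower bound for functions with scale invariant bounds in a rough domain, one tip -/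
def StmtSV : Prop :=
  ∀ (b ε δ M : ℝ), bCrit ≤ b → 0 < ε → 0 < δ → 0 < M →
    ∃ (n1 : ℕ) (C : ℝ), ∀ (r : ℕ) (U : Finset Z2) (φ : Z2 → ℝ), 1 ≤ r →
      (∀ f, φ f ≠ 0 → n1 ≤ nm f ∧ nm f ≤ r ∧
        ∀ g : Z2, |((g.1 - f.1 : ℤ) : ℝ)| ≤ δ * nm f → |((g.2 - f.2 : ℤ) : ℝ)| ≤ δ * nm f → g ∈ U) →
      (∀ f, |φ f| ≤ M) → (∀ f d, (1 + nm f : ℝ) * |φ (stp d f) - φ f| ≤ M) →
      (∀ f d d', (1 + nm f : ℝ) ^ 2 *
        |φ (stp d (stp d' f)) - φ (stp d' f) - (φ (stp d f) - φ f)| ≤ M) →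
      ∀ S : Finset Bnd, helicity b * ∑ e ∈ S, dr φ e ^ 2 - ε * Real.log r - C ≤ Vr b U (dr φ)

/-! ### soft potential theory: `u = t - v` -/

/-- S.CL (P1): `u` is small near the complement of `R` -/
def StmtCL : Prop :=
  ∀ (K ω : ℝ), 0 < K → 0 < ω → ∃ δ : ℝ, 0 < δ ∧ ∀ (c1 : ℝ) (n0 r : ℕ) (R : Finset Z2)
    (t v : Z2 → ℝ), 0 < c1 → c1 ≤ 1 / 8 → Tent K c1 n0 r t → Unb R → Harm R t v →
    ∀ f g : Z2, g ∉ R → |((g.1 - f.1 : ℤ) : ℝ)| ≤ δ * max (n0 : ℝ) (ns r f) →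
      |((g.2 - f.2 : ℤ) : ℝ)| ≤ δ * max (n0 : ℝ) (ns r f) → |t f - v f| ≤ ω

/-- S.EN (P3): energy, oscillation and size of the gradient of `u`; here `R` is a part of the slit
box -/
def StmtOsc : Prop :=
  ∀ (K ε c1 : ℝ) (l : ℕ), 0 < K → 0 < ε → 0 < c1 → c1 ≤ 1 / 8 → ∃ n1 : ℕ, ∀ n0 ≥ n1, ∃ C : ℝ,
    ∀ (r : ℕ) (R : Finset Z2) (t v : Z2 → ℝ), 1 ≤ r → Tent K c1 n0 r t → Unb R → Harm R t v →
    (∀ f ∈ R, f ∉ slit r) →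
    (∀ e, |dr (fun f => t f - v f) e| ≤ ε) ∧
    (∀ S : Finset Bnd, osc l S (dr fun f => t f - v f) ≤ ε * Real.log r + C) ∧
    (∀ S : Finset Bnd, ∑ e ∈ S, dr (fun f => t f - v f) e ^ 2 ≤ C * Real.log r + C) ∧
    (∀ S : Finset Bnd, ∑ e ∈ S, dr v e ^ 2 ≤ C * Real.log r + C)

/-- S.EN0: energies; the constant depends on `K` and `c1` only -/
def StmtEn0 : Prop :=
  ∀ (K c1 : ℝ), 0 < K → 0 < c1 → c1 ≤ 1 / 8 → ∃ C0 : ℝ, 0 < C0 ∧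
    ∀ (n0 r : ℕ) (R : Finset Z2) (t v : Z2 → ℝ), 1 ≤ r → Tent K c1 n0 r t → Harm R t v →
    (∀ S : Finset Bnd, ∑ e ∈ S, dr t e ^ 2 ≤ C0 * (1 + Real.log r)) ∧
    (∀ S : Finset Bnd, ∑ e ∈ S, dr v e ^ 2 ≤ C0 * (1 + Real.log r)) ∧
    (∀ S : Finset Bnd, ∑ e ∈ S, dr (fun f => t f - v f) e ^ 2 ≤ C0 * (1 + Real.log r)) ∧
    ∀ F : Finset Z2, (∀ f ∈ F, f ∉ slit r) → ∑ f ∈ F, |lap t f| ≤ C0 * (1 + Real.log r)

/-- S.PHI (P1, P2, P4): `u` is a function with scale invariant bounds, which vanishes near the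
complement of `R`, up to a small energy -/
def StmtPhi : Prop :=
  ∀ (K ε : ℝ), 0 < K → 0 < ε → ∃ δ M : ℝ, 0 < δ ∧ 0 < M ∧ ∀ (c1 : ℝ) (n1 : ℕ), 0 < c1 →
    c1 ≤ 1 / 16 → ∃ n2 : ℕ, ∀ n0 ≥ n2, ∃ C : ℝ,
    ∀ (r : ℕ) (R : Finset Z2) (t v : Z2 → ℝ), 1 ≤ r → Tent K c1 n0 r t → Unb R → Harm R t v →
    (∀ f ∈ R, f ∉ slit r) →
    ∃ φ : Z2 → ℝ, (∀ f, φ f ≠ 0 → n1 ≤ ns r f ∧ (ns r f : ℝ) ≤ 4 * c1 * r ∧
        ∀ g : Z2, |((g.1 - f.1 : ℤ) : ℝ)| ≤ δ * ns r f →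
          |((g.2 - f.2 : ℤ) : ℝ)| ≤ δ * ns r f → g ∈ R) ∧
      (∀ f, |φ f| ≤ M) ∧ (∀ f d, (1 + ns r f : ℝ) * |φ (stp d f) - φ f| ≤ M) ∧
      (∀ f d d', (1 + ns r f : ℝ) ^ 2 *
        |φ (stp d (stp d' f)) - φ (stp d' f) - (φ (stp d f) - φ f)| ≤ M) ∧
      ∀ S : Finset Bnd, ∑ e ∈ S, (dr (fun f => t f - v f) e - dr φ e) ^ 2 ≤ ε * Real.log r + C

/-- S.VU: the variance of the gradient of `u` in `R'` (`R` without its outer layer) -/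
def StmtVu : Prop :=
  ∀ (b K ε c1 : ℝ), bCrit ≤ b → 0 < K → 0 < ε → 0 < c1 → c1 ≤ 1 / 16 → ∃ n1 : ℕ, ∀ n0 ≥ n1,
    ∃ C : ℝ, ∀ (r : ℕ) (R R' : Finset Z2) (t v : Z2 → ℝ), 1 ≤ r → Tent K c1 n0 r t → Unb R →
    Harm R t v → (∀ f ∈ R, f ∉ slit r) → (∀ f, (∀ g, InBox f 1 g → g ∈ R) → f ∈ R') →
    ∀ S : Finset Bnd, helicity b * ∑ e ∈ S, dr (fun f => t f - v f) e ^ 2 - ε * Real.log r - C ≤
      Vr b R' (dr fun f => t f - v f)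

/-- S.UNB: the complement of `SB R r` without an explored set is connected to infinity -/
def StmtUnb : Prop :=
  ∀ (R r : ℕ) (T : Set Z2) (N : Finset Z2), 1 ≤ R → 1 ≤ r → Expl (SB R r) T N →
    Unb (SB R r \ N)

/-! ### explicit objects -/

/-- S.T: the smoothed tent -/
def StmtT : Prop :=
  ∀ (Y V ε κ x y s c1 : ℝ) (q : ℕ), 0 < Y → 1 < V → 0 < ε → Par q κ x y s c1 →
    ∃ (K : ℝ) (n1 : ℕ), 0 < K ∧ ∀ n0 ≥ n1, ∃ C : ℝ, ∀ r : ℕ, (n0 : ℝ) ≤ c1 * r →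
      ∃ t : Z2 → ℝ, Tent K c1 n0 r t ∧
        ∀ S : Finset Bnd, (∀ e ∈ S, lf e ∉ slit r ∨ rt e ∉ slit r) →
          ∑ e ∈ S, (Be Y V q n0 r κ x y s c1 e - dr t e / Y) ^ 2 ≤ ε * Real.log r + C

/-- S.BE: the explicit field -/
def StmtBe : Prop :=
  ∀ (Y V η κ x y s c1 : ℝ) (q l : ℕ), 0 < Y → 1 < V → 0 < η → Par q κ x y s c1 →
    ∃ n1 : ℕ, ∀ n0 ≥ n1, ∃ C : ℝ, ∀ (R r : ℕ), n1 ≤ r → (n0 : ℝ) ≤ c1 * r →
      IsDiv (SB R r) (Be Y V q n0 r κ x y s c1) (rp Y V q n0 r κ x y s c1) ∧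
      IsDiv (SB R r) (Bz Y q n0 r c1) (rz Y q n0 r c1) ∧
      (∀ f, 0 ≤ rp Y V q n0 r κ x y s c1 f) ∧
      (∀ e, |Be Y V q n0 r κ x y s c1 e| ≤ η) ∧ (∀ e, |Bz Y q n0 r c1 e| ≤ η) ∧
      (∀ S, osc l S (Be Y V q n0 r κ x y s c1) ≤ C) ∧ (∀ S, osc l S (Bz Y q n0 r c1) ≤ C) ∧
      (∀ S : Finset Bnd, ∑ e ∈ S, (Y * Bz Y q n0 r c1 e) ^ 2 ≤ 2 * Real.log r / ang q + C)

/-- S.BEE: energy of the explicit field, the coefficient of the logarithm does not depend on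
`n0` -/
def StmtBeE : Prop :=
  ∀ (Y V κ x y s c1 : ℝ) (q : ℕ), 0 < Y → 1 < V → Par q κ x y s c1 →
    ∃ (CE : ℝ) (n1 : ℕ), 0 < CE ∧ ∀ n0 ≥ n1, ∃ C : ℝ, ∀ r : ℕ, (n0 : ℝ) ≤ c1 * r →
      ∀ S : Finset Bnd, ∑ e ∈ S, Be Y V q n0 r κ x y s c1 e ^ 2 ≤ CE * Real.log r + C

/-! ### probability -/

open Classical in
/-- S.PROB: with the charges `rho`, the `{h ≤ 0}` cluster of the upper lip misses `Tz` with
probability at least `c r ^ (-ε)` -/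
def StmtProb : Prop :=
  ∀ b V κ ε : ℝ, bCrit ≤ b → 0 < V → 1 < 2 * V ^ 2 / (Real.pi * helicity b) → 0 < κ → 0 < ε →
    ∃ q0 : ℕ, ∀ q ≥ q0, ∃ (x y s c0 : ℝ) (n1 A0 : ℕ), 0 < c0 ∧ ∀ c1 : ℝ, 0 < c1 → c1 ≤ c0 →
      Par q κ x y s c1 ∧ ∀ n0 ≥ n1, ∃ (c : ℝ) (r0 : ℕ), 0 < c ∧ ∀ A r : ℕ, A0 ≤ A → r0 ≤ r →
        c * (r : ℝ) ^ (-ε) *
            Zρ b (SB (A * r) r) (D.rho (helicity b) V q n0 r κ x y s) ≤
          ∑' h : Ht (SB (A * r) r),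
            if Jn (SB (A * r) r) {f | h.1 f ≤ 0} (upp (SB (A * r) r)) (Tz q r c1 (SB (A * r) r))
            then 0 else wt b (SB (A * r) r) 0 h.1 *
              Real.exp (ch (SB (A * r) r) (D.rho (helicity b) V q n0 r κ x y s) h.1)

open Classical in
/-- S.AMP: exploration of the `{h ≤ 0}` cluster of the upper lip with the last line kept -/
def StmtAmp : Prop :=
  ∀ (b M : ℝ) (R r : ℕ) (ρ ρ1 : Z2 → ℝ) (T : Set Z2), 0 < b → 0 ≤ M → 2 ≤ R → 1 ≤ r →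
    (∀ f, 0 ≤ ρ f) → (∀ f, 0 ≤ ρ1 f) → (∀ f, f ∉ T → ρ1 f = ρ f) → low (SB R r) ⊆ T →
    (∀ N : Finset Z2, Expl (SB R r) T N →
      Zn b (SB R r) N 1 ρ * Z b (SB R r \ nbF (SB R r) N) ≤
        M * (Real.exp (∑ f ∈ SB R r \ N, ρ1 f) * Zρ b (SB R r \ nbF (SB R r) N) ρ1) *
          Z b (SB R r \ N)) →
    (∑' h : Ht (SB R r), if Jn (SB R r) {f | h.1 f ≤ 0} (upp (SB R r)) T then 0 else
        wt b (SB R r) 0 h.1 * Real.exp (ch (SB R r) ρ h.1)) ≤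
      M * (Real.exp (∑ f ∈ SB R r, ρ1 f) * Zs b (SB R r) (-1) ρ1)

/-! ### the main estimates -/

/-- S.KEY -/
def StmtKey : Prop :=
  ∀ (b V ε κ x y s c1 : ℝ) (q : ℕ), bCrit ≤ b → 1 < V → 0 < ε → Par q κ x y s c1 → c1 ≤ 1 / 16 →
    ∃ n1 : ℕ, ∀ n0 ≥ n1, ∃ (C : ℝ) (r0 : ℕ), ∀ (A r : ℕ), 1 ≤ A → r0 ≤ r → ∀ N : Finset Z2,
      Expl (SB (A * r) r) (Tz q r c1 (SB (A * r) r)) N →
      Zn b (SB (A * r) r) N 1 (D.rho (helicity b) V q n0 r κ x y s) *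
          Z b (SB (A * r) r \ nbF (SB (A * r) r) N) ≤
        Real.exp (Real.log r / (helicity b * ang q) + ε * Real.log r + C) *
          (Real.exp (∑ f ∈ SB (A * r) r \ N, rp (helicity b) V q n0 r κ x y s c1 f) *
            Zρ b (SB (A * r) r \ nbF (SB (A * r) r) N) (rp (helicity b) V q n0 r κ x y s c1)) *
          Z b (SB (A * r) r \ N)

/-- S.LOWP (L2): lower bound in the sector `(0|0)` with the charges `ρ'` -/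
def StmtLowP : Prop :=
  ∀ (b V ε κ x y s c1 : ℝ) (q : ℕ), bCrit ≤ b → 1 < V → 0 < ε → Par q κ x y s c1 →
    ∃ n1 : ℕ, ∀ n0 ≥ n1, ∃ (C : ℝ) (r0 : ℕ), ∀ (A r : ℕ), 1 ≤ A → r0 ≤ r →
      Real.exp (2 * Real.log r / helicity b * En (V - aq q) q - ε * Real.log r - C) *
          Z b (SB (A * r) r) ≤
        Zρ b (SB (A * r) r) (rp (helicity b) V q n0 r κ x y s c1)

/-- S.UPM (L3): upper bound in the sector `(0|1)` with the charges `2 ρ'` -/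
def StmtUpM : Prop :=
  ∀ (b V ε κ x y s c1 : ℝ) (q : ℕ), bCrit ≤ b → 1 < V → 0 < ε → Par q κ x y s c1 →
    ∃ n1 : ℕ, ∀ n0 ≥ n1, ∃ (C : ℝ) (r0 : ℕ), ∀ (A r : ℕ), 1 ≤ A → r0 ≤ r →
      Real.exp (2 * ∑ f ∈ SB (A * r) r, rp (helicity b) V q n0 r κ x y s c1 f) *
          Zs b (SB (A * r) r) (-1) (fun f => 2 * rp (helicity b) V q n0 r κ x y s c1 f) ≤
        Real.exp (2 * Real.log r / helicity b *
          (4 * En (V - aq q) q + 2 * (V - aq q) / ang q - 1 / (4 * Real.pi)) +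
          ε * Real.log r + C) * Z b (SB (A * r) r)

/-- S.L1: lower bound in the sector `(0|1)` with the charges `ρ'` -/
def StmtL1 : Prop :=
  ∀ (b ε : ℝ), bCrit ≤ b → 0 < ε → ∃ (V κ x y s c1 : ℝ) (q n1 A0 : ℕ), 1 < V ∧
    Par q κ x y s c1 ∧ ∀ n0 ≥ n1, ∃ (C : ℝ) (r0 : ℕ), ∀ (A r : ℕ), A0 ≤ A → r0 ≤ r →
      Real.exp (2 * Real.log r / helicity b *
          (En (V - aq q) q + (V - aq q) / ang q - 1 / (4 * Real.pi)) - ε * Real.log r - C) *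
          Z b (SB (A * r) r) ≤
        Real.exp (∑ f ∈ SB (A * r) r, rp (helicity b) V q n0 r κ x y s c1 f) *
          Zs b (SB (A * r) r) (-1) (rp (helicity b) V q n0 r κ x y s c1)

/-- **the sharp result on the axis** -/
def StmtSharp : Prop :=
  ∀ (b ε : ℝ), bCrit ≤ b → 0 < ε → ∃ c : ℝ, 0 < c ∧ ∀ r : ℕ, 1 ≤ r →
    c * (r : ℝ) ^ (-(1 / (2 * Real.pi * helicity b) + ε)) ≤ corrInf b ((r : ℤ), 0)

end Vale.Agent.P159.T1.S
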